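import Vale.Agent.P032.Words6.H358.Leaf
import Vale.Agent.P032.Words6.H122.Lists
import Vale.Agent.P032.Words6.H704.Start
import Vale.Agent.P032.Words6.H704.Hd
import Vale.Agent.P032.Words6.H343.SysOf
import Vale.Agent.P032.Words6.H172.Modes
import Vale.Agent.P032.S5.H843.Hand6

/-!
# P032: six-coloured points from the tables
-/

open Set Filter Topology Metric

noncomputable section

namespace Vale.Agent.P032.Words6.H227

open Vale.Agent.P032.Six Vale.Agent.P032.S5.H767 Vale.Agent.P032.Words6.H704
  Vale.Agent.P032.Words6.H46 Vale.Agent.P032.Words6.H343 Vale.Agent.P032.Words6.H172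
  Vale.Agent.P032.Words6.H358 Vale.Agent.P032.Words6.H122 Vale.Agent.P032.S5.H843

theorem lists_eq : Lets35 = dats.map fun D => D.map Prod.fst := by decide +kernel

/-- all tables exclude all six-coloured points with a clean circle -/
theorem six_of_trees (hall : ∀ L ∈ Lets35, TreeOK L) : NoSixA := by
  intro U T h hmin hU h5 z h6 hcl hact
  obtain ⟨C, hs, hi, ha, hdeg, hcut⟩ := start h hmin h6 hcl hact
  obtain ⟨L, hL, f, hf, hlt, hM⟩ := classify35 hs hi ha hdeg hcut
  exact tree_false C hact
    (hl_sel C fun v hv => C.hd hmin (by rw [← lists_eq]; exact hL) hf hlt hM hv)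
    (fun v h hv => hl_leg v h hv) (fun v h hv => hl_rot hv) (hall L hL) hf hlt hM
    (rs_of h hmin hU h5 h6)

end Vale.Agent.P032.Words6.H227
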